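import Mathlib

namespace Vale.Agent.P061

/-- A loopless undirected multigraph with vertex set `V` and set of edge copies `E`. -/
structure MGraph (V E : Type) where
  /-- the two endpoints of an edge copy, listed in some order -/
  ends : E → V × V
  loopless : ∀ e, (ends e).1 ≠ (ends e).2

variable {V E : Type} [Fintype V] [DecidableEq V] [Fintype E] [DecidableEq E]

/-- `δ_G(S)`: the edge copies with exactly one endpoint in `S`. -/
def MGraph.cut (G : MGraph V E) (S : Finset V) : Finset E :=
  Finset.univ.filter (fun e => ¬ ((G.ends e).1 ∈ S ↔ (G.ends e).2 ∈ S))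

/-- Every cut has at least `k` edge copies. -/
def MGraph.EdgeConnected (G : MGraph V E) (k : ℕ) : Prop :=
  ∀ S : Finset V, S.Nonempty → S ≠ Finset.univ → k ≤ (G.cut S).card

/-- `T` is (the edge set of) a spanning tree: `|V| - 1` edge copies that cross every cut, that is,
connect all of `V`. -/
def MGraph.IsSpanningTree (G : MGraph V E) (T : Finset E) : Prop :=
  T.card + 1 = Fintype.card V ∧
    ∀ S : Finset V, S.Nonempty → S ≠ Finset.univ → (T ∩ G.cut S).Nonempty

/-- `|δ_T(S)| ≤ α |δ_G(S)|` for every nonempty proper `S`. -/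
def MGraph.IsThin (G : MGraph V E) (α : ℝ) (T : Finset E) : Prop :=
  ∀ S : Finset V, S.Nonempty → S ≠ Finset.univ →
    ((T ∩ G.cut S).card : ℝ) ≤ α * (G.cut S).card

/-- Thinness `α` can be guaranteed for all finite `k`-edge-connected multigraphs on at least two
vertices. -/
def Guaranteed (k : ℕ) (α : ℝ) : Prop :=
  ∀ (V E : Type) [Fintype V] [DecidableEq V] [Fintype E] [DecidableEq E] (G : MGraph V E),
    2 ≤ Fintype.card V → G.EdgeConnected k →
      ∃ T : Finset E, G.IsSpanningTree T ∧ G.IsThin α T

end Vale.Agent.P061
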