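import Vale.Agent.P061.Defs

namespace Vale.Agent.P061

open Finset

variable {V E : Type} [Fintype V] [DecidableEq V] [Fintype E] [DecidableEq E]

/-- a spanning tree is bipartite -/
lemma bip (G : MGraph V E) (T : Finset E) (hT : G.IsSpanningTree T) :
    ∃ S : Finset V, T ⊆ G.cut S := by
  have key : ∀ j : ℕ, 1 ≤ j → j ≤ Fintype.card V → ∃ A S : Finset V, A.card = j ∧
      j ≤ (T.filter (fun e => (G.ends e).1 ∈ A ∧ (G.ends e).2 ∈ A ∧ e ∈ G.cut S)).card + 1 := by
    intro j hj
    induction j, hj using Nat.le_induction with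
    | base =>
      intro h
      obtain ⟨v⟩ : Nonempty V := Fintype.card_pos_iff.mp (by omega)
      exact ⟨{v}, ∅, by simp, by omega⟩
    | succ j hj ih =>
      intro h
      obtain ⟨A, S, hA, hc⟩ := ih (by omega)
      have hAne : A.Nonempty := Finset.card_pos.mp (by omega)
      have hAu : A ≠ Finset.univ := by
        intro hc'
        rw [hc', Finset.card_univ] at hA
        omega
      obtain ⟨e, he⟩ := hT.2 A hAne hAu
      rw [Finset.mem_inter] at he
      obtain ⟨heT, hecut⟩ := he
      -- the endpoint outside A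
      obtain ⟨a, b, haA, hbA, hab⟩ : ∃ a b : V, a ∈ A ∧ b ∉ A ∧
          ((G.ends e = (a, b)) ∨ (G.ends e = (b, a))) := by
        simp only [MGraph.cut, Finset.mem_filter, Finset.mem_univ, true_and] at hecut
        by_cases h1 : (G.ends e).1 ∈ A
        · have h2 : (G.ends e).2 ∉ A := fun h2 => hecut ⟨fun _ => h2, fun _ => h1⟩
          exact ⟨_, _, h1, h2, Or.inl rfl⟩
        · have h2 : (G.ends e).2 ∈ A := by
            by_contra h2
            exact hecut ⟨fun h => absurd h h1, fun h => absurd h h2⟩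
          exact ⟨_, _, h2, h1, Or.inr rfl⟩
      -- choose the side of b
      set S' : Finset V := if a ∈ S then S.erase b else insert b S with hS'
      have hagree : ∀ v, v ≠ b → (v ∈ S' ↔ v ∈ S) := by
        intro v hv
        rw [hS']
        split_ifs
        · simp [hv]
        · simp [hv]
      have hane : a ≠ b := fun h => hbA (h ▸ haA)
      have hb : (b ∈ S' ↔ a ∉ S) := by
        rw [hS']
        split_ifs with h1
        · simp [h1]
        · simp [h1]
      refine ⟨insert b A, S', by rw [Finset.card_insert_of_notMem hbA, hA], ?_⟩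
      have hsub : insert e (T.filter (fun e => (G.ends e).1 ∈ A ∧ (G.ends e).2 ∈ A ∧
          e ∈ G.cut S)) ⊆ T.filter (fun e => (G.ends e).1 ∈ insert b A ∧
          (G.ends e).2 ∈ insert b A ∧ e ∈ G.cut S') := by
        intro e' he'
        rcases Finset.mem_insert.mp he' with h1 | h1
        · subst h1
          simp only [Finset.mem_filter, MGraph.cut, Finset.mem_univ, true_and]
          refine ⟨heT, ?_, ?_, ?_⟩
          · rcases hab with h2 | h2 <;> rw [h2] <;> simp [haA]
          · rcases hab with h2 | h2 <;> rw [h2] <;> simp [haA]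
          · rcases hab with h2 | h2 <;> rw [h2] <;> simp only [hb, hagree a hane] <;> tauto
        · simp only [Finset.mem_filter, MGraph.cut, Finset.mem_univ, true_and] at h1 ⊢
          obtain ⟨h2, h3, h4, h5⟩ := h1
          have n1 : (G.ends e').1 ≠ b := fun h => hbA (h ▸ h3)
          have n2 : (G.ends e').2 ≠ b := fun h => hbA (h ▸ h4)
          refine ⟨h2, Finset.mem_insert_of_mem h3, Finset.mem_insert_of_mem h4, ?_⟩
          rw [hagree _ n1, hagree _ n2]
          exact h5
      have hnot : e ∉ T.filter (fun e => (G.ends e).1 ∈ A ∧ (G.ends e).2 ∈ A ∧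
          e ∈ G.cut S) := by
        intro h1
        simp only [Finset.mem_filter] at h1
        rcases hab with h2 | h2
        · rw [h2] at h1; exact hbA h1.2.2.1
        · rw [h2] at h1; exact hbA h1.2.1
      have hcard := Finset.card_le_card hsub
      rw [Finset.card_insert_of_notMem hnot] at hcard
      omega
  have hT1 := hT.1
  obtain ⟨A, S, hA, hc⟩ := key (Fintype.card V) (by omega) le_rfl
  refine ⟨S, ?_⟩
  have hfull : T.filter (fun e => (G.ends e).1 ∈ A ∧ (G.ends e).2 ∈ A ∧ e ∈ G.cut S) = T := by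
    apply Finset.eq_of_subset_of_card_le (Finset.filter_subset _ _)
    omega
  intro e he
  rw [← hfull] at he
  exact (Finset.mem_filter.mp he).2.2.2

/-- edges of the complete graph -/
abbrev KE (n : ℕ) : Type := {p : Fin n × Fin n // p.1 < p.2}

/-- the complete graph -/
def KG (n : ℕ) : MGraph (Fin n) (KE n) where
  ends e := e.1
  loopless e := ne_of_lt e.2

lemma KG_mem (n : ℕ) (S : Finset (Fin n)) (e : KE n) :
    e ∈ (KG n).cut S ↔ ¬ (e.1.1 ∈ S ↔ e.1.2 ∈ S) := by
  unfold MGraph.cut
  rw [Finset.mem_filter]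
  exact ⟨fun h => h.2, fun h => ⟨Finset.mem_univ _, h⟩⟩

lemma KG_cut (n : ℕ) (S : Finset (Fin n)) : ((KG n).cut S).card = S.card * Sᶜ.card := by
  rw [← Finset.card_product]
  symm
  apply Finset.card_bij (fun (p : Fin n × Fin n) (hp : p ∈ S ×ˢ Sᶜ) =>
    (if h : p.1 < p.2 then (⟨(p.1, p.2), h⟩ : KE n) else ⟨(p.2, p.1), by
      have h1 := (Finset.mem_product.mp hp).1
      have h2 := Finset.mem_compl.mp (Finset.mem_product.mp hp).2
      have h3 : p.1 ≠ p.2 := fun hc => h2 (hc ▸ h1)
      exact lt_of_le_of_ne (not_lt.mp h) (Ne.symm h3)⟩))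
  · intro p hp
    have h1 := (Finset.mem_product.mp hp).1
    have h2 := Finset.mem_compl.mp (Finset.mem_product.mp hp).2
    rw [KG_mem]
    split_ifs with h
    · simp [h1, h2]
    · simp [h1, h2]
  · intro p hp q hq heq
    have h1 := (Finset.mem_product.mp hp).1
    have h2 := Finset.mem_compl.mp (Finset.mem_product.mp hp).2
    have h3 := (Finset.mem_product.mp hq).1
    have h4 := Finset.mem_compl.mp (Finset.mem_product.mp hq).2
    split_ifs at heq with ha hb hb
    · have := congrArg Subtype.val heq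
      simpa using this
    · have := congrArg Subtype.val heq
      simp only [Prod.mk.injEq] at this
      exact absurd (this.1 ▸ h1) h4
    · have := congrArg Subtype.val heq
      simp only [Prod.mk.injEq] at this
      exact absurd (this.2 ▸ h1) h4
    · have := congrArg Subtype.val heq
      simp only [Prod.mk.injEq] at this
      exact Prod.ext this.2 this.1
  · intro e he
    rw [KG_mem] at he
    by_cases h1 : e.1.1 ∈ S
    · have h2 : e.1.2 ∉ S := fun h2 => he ⟨fun _ => h2, fun _ => h1⟩
      refine ⟨(e.1.1, e.1.2), Finset.mem_product.mpr ⟨h1, Finset.mem_compl.mpr h2⟩, ?_⟩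
      simp [e.2]
    · have h2 : e.1.2 ∈ S := by
        by_contra h2
        exact he ⟨fun h => absurd h h1, fun h => absurd h h2⟩
      refine ⟨(e.1.2, e.1.1), Finset.mem_product.mpr ⟨h2, Finset.mem_compl.mpr h1⟩, ?_⟩
      have : ¬ e.1.2 < e.1.1 := not_lt.mpr e.2.le
      simp [this]

lemma card_prod_le (n : ℕ) (S : Finset (Fin n)) : 4 * (S.card * Sᶜ.card) ≤ n ^ 2 := by
  have h : S.card + Sᶜ.card = n := by
    rw [Finset.card_add_card_compl]; simp
  have h2 : 4 * (S.card * Sᶜ.card) ≤ (S.card + Sᶜ.card) ^ 2 := by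
    have := four_mul_le_sq_add S.card Sᶜ.card
    linarith
  rwa [h] at h2

lemma KG_conn (k : ℕ) : (KG (k + 1)).EdgeConnected k := by
  intro S hS hSu
  rw [KG_cut]
  have h1 : 1 ≤ S.card := Finset.card_pos.mpr hS
  have h2 : 1 ≤ Sᶜ.card := by
    rw [Nat.one_le_iff_ne_zero, Ne, Finset.card_eq_zero, Finset.compl_eq_empty_iff]
    exact hSu
  have h : S.card + Sᶜ.card = k + 1 := by
    rw [Finset.card_add_card_compl]; simp
  nlinarith

lemma main (k : ℕ) (hk : 1 ≤ k) (α : ℝ) (h : Guaranteed k α) :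
    4 * (k:ℝ) / ((k:ℝ) + 1) ^ 2 ≤ α := by
  obtain ⟨T, hT, hthin⟩ := h (Fin (k + 1)) (KE (k + 1)) (KG (k + 1)) (by simp; omega) (KG_conn k)
  obtain ⟨S, hS⟩ := bip (KG (k + 1)) T hT
  have hTc : T.card = k := by
    have := hT.1
    simp only [Fintype.card_fin] at this
    omega
  have hTne : T.Nonempty := Finset.card_pos.mp (by omega)
  obtain ⟨e, he⟩ := hTne
  have hecut := (KG_mem _ S e).mp (hS he)
  have hSne : S.Nonempty := by
    by_contra hc
    rw [Finset.not_nonempty_iff_eq_empty] at hc
    subst hc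
    simp at hecut
  have hSu : S ≠ Finset.univ := by
    intro hc
    subst hc
    simp at hecut
  have h1 := hthin S hSne hSu
  rw [Finset.inter_eq_left.mpr hS, hTc, KG_cut] at h1
  have h2 := card_prod_le (k + 1) S
  have h3 : 4 * ((S.card * Sᶜ.card : ℕ) : ℝ) ≤ ((k:ℝ) + 1) ^ 2 := by exact_mod_cast h2
  have hkr : (1:ℝ) ≤ k := by exact_mod_cast hk
  have hpos : (0:ℝ) < ((S.card * Sᶜ.card : ℕ) : ℝ) := by
    have a1 : 1 ≤ S.card := Finset.card_pos.mpr hSne
    have a2 : 1 ≤ Sᶜ.card := by
      rw [Nat.one_le_iff_ne_zero, Ne, Finset.card_eq_zero, Finset.compl_eq_empty_iff]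
      exact hSu
    exact_mod_cast Nat.mul_pos a1 a2
  have hα : 0 ≤ α := by
    by_contra hc
    push Not at hc
    have := mul_neg_of_neg_of_pos hc hpos
    linarith
  rw [div_le_iff₀ (by positivity)]
  nlinarith

theorem final (C : ℝ) (h : ∀ k : ℕ, 1 ≤ k → Guaranteed k (C / k)) : 4 ≤ C := by
  have h1 : ∀ k : ℕ, 1 ≤ k → 4 * (k:ℝ) ^ 2 / ((k:ℝ) + 1) ^ 2 ≤ C := by
    intro k hk
    have h2 := main k hk _ (h k hk)
    have hkr : (0:ℝ) < k := by exact_mod_cast hk
    rw [le_div_iff₀ hkr] at h2
    refine le_trans (le_of_eq ?_) h2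
    field_simp
  have hlim : Filter.Tendsto (fun k : ℕ => 4 * (k:ℝ) ^ 2 / ((k:ℝ) + 1) ^ 2) Filter.atTop
      (nhds 4) := by
    have h3 : Filter.Tendsto (fun k : ℕ => (k:ℝ) / ((k:ℝ) + 1)) Filter.atTop (nhds 1) :=
      tendsto_natCast_div_add_atTop 1
    have h4 := (h3.pow 2).const_mul 4
    simp only [one_pow, mul_one] at h4
    refine h4.congr (fun k => ?_)
    rw [div_pow, mul_div_assoc]
  exact le_of_tendsto hlim (Filter.eventually_atTop.mpr ⟨1, h1⟩)

end Vale.Agent.P061
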